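import Vale.Agent.P088.H599.CFAlg
import Vale.Agent.P088.H129.Core
import Vale.Agent.P088.H501.A12

/-!
# P088, conformally flat metrics: row CF_ABS from rows CF_ROT, A2, A3
-/

open MeasureTheory Set
open scoped ContDiff Matrix

noncomputable section

namespace Vale.Agent.P088.LR.CF

namespace H599

variable {n : ℕ}

lemma bal_sub : bal n ⊆ core n := by
  intro x hx j
  have h : (x j - 1 / 2) ^ 2 ≤ 1 / 16 :=
    (Finset.single_le_sum (f := fun j => (x j - 1 / 2) ^ 2) (fun _ _ => sq_nonneg _)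
      (Finset.mem_univ j)).trans hx
  have h1 : |x j - 1 / 2| ≤ 1 / 4 := by
    refine abs_le_of_sq_le_sq ?_ (by norm_num)
    linarith
  have h2 := abs_le.1 h1
  constructor <;> linarith [h2.1, h2.2]

lemma smooth_df {σ : V n → ℝ} (hσ : ContDiff ℝ ∞ σ) {s : MF n} (hs : SmM s) (i j : Fin n) :
    ContDiff ℝ ∞ (df (sc σ) s i j) := by
  unfold df
  refine Complex.ofRealCLM.contDiff.comp ((hs i j).sub ?_)
  show ContDiff ℝ ∞ fun x => σ x * (1 : Matrix (Fin n) (Fin n) ℝ) i j
  exact hσ.mul contDiff_const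

lemma df_off {Ω : Set (V n)} {σ : V n → ℝ} {s : MF n} (h1 : ∀ x ∉ Ω, s x = sc σ x) (i j : Fin n)
    {x : V n} (hx : x ∉ Ω) : df (sc σ) s i j x = 0 := by
  simp [df, h1 x hx]

lemma tsupport_df {Ω : Set (V n)} {σ : V n → ℝ} {s : MF n} (hΩ : Ω ⊆ core n)
    (h1 : ∀ x ∉ Ω, s x = sc σ x) (i j : Fin n) : tsupport (df (sc σ) s i j) ⊆ core n := by
  refine closure_minimal ?_ H129.isCompact_core.isClosed
  intro x hx
  by_contra hc
  exact hx (df_off h1 i j fun h => hc (hΩ h))

lemma df_symm {σ : V n → ℝ} {s : MF n} (hsym : ∀ x, (s x).IsSymm) (i j : Fin n) :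
    df (sc σ) s i j = df (sc σ) s j i := by
  funext x
  have h2 : s x i j = s x j i := (hsym x).apply j i
  have h3 : sc σ x i j = sc σ x j i := by
    unfold sc
    simp only [Matrix.smul_apply, Matrix.one_apply, eq_comm]
  unfold df
  rw [h2, h3]

lemma int_ex {f : V n → ℂ} (hf : Integrable f) (ξ : V n) : Integrable fun x => f x * ex ξ x := by
  refine hf.norm.mono' (hf.1.mul (H129.continuous_ex' ξ).aestronglyMeasurable) ?_
  refine Filter.Eventually.of_forall fun x => ?_
  rw [norm_mul, H501.norm_ex, mul_one]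

lemma ft_add_sum {f : V n → ℂ} {h : Fin n → V n → ℂ} (hf : Integrable f)
    (hh : ∀ j, Integrable (h j)) (ξ : V n) :
    ft (fun x => f x + ∑ j, h j x) ξ = ft f ξ + ∑ j, ft (h j) ξ := by
  unfold ft
  have h1 : ∀ x, (f x + ∑ j, h j x) * ex (-ξ) x
      = f x * ex (-ξ) x + ∑ j, h j x * ex (-ξ) x := by
    intro x
    rw [add_mul, Finset.sum_mul]
  simp only [h1]
  rw [integral_add (int_ex hf _) (integrable_finsetSum _ fun j _ => int_ex (hh j) _),
    integral_finsetSum _ fun j _ => int_ex (hh j) _]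

/-- The coefficients of the product with a series. -/
lemma ft_mul_Es {f : V n → ℂ} (hf : Continuous f) (hc : HasCompactSupport f) {g : Ix n → ℂ}
    (hg : RD g) (k : Ix n) :
    ft (fun x => f x * Es 0 g x) (fr 0 k) = ∑' l, g l * cf 0 f (k - l) := by
  have hint : Integrable f := hf.integrable_of_hasCompactSupport hc
  set F : Ix n → V n → ℂ := fun l x => f x * (g l * ex (fr 0 l) x) * ex (-(fr 0 k)) x with hF
  have hFn : ∀ l x, ‖F l x‖ = ‖g l‖ * ‖f x‖ := by
    intro l x
    simp only [hF, norm_mul, H501.norm_ex, mul_one]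
    ring
  have hFc : ∀ l, Continuous (F l) := fun l =>
    (hf.mul (continuous_const.mul (H129.continuous_ex' _))).mul (H129.continuous_ex' _)
  have hFi : ∀ l, Integrable (F l) := by
    intro l
    refine (hint.norm.const_mul ‖g l‖).mono' (hFc l).aestronglyMeasurable ?_
    exact Filter.Eventually.of_forall fun x => (hFn l x).le
  have hsum : Summable fun l => ∫ x, ‖F l x‖ := by
    simp only [hFn, integral_const_mul]
    exact (H501.rd_summable_norm hg).mul_right _
  have h1 := integral_tsum_of_summable_integral_norm hFi hsum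
  have h2 : ∀ l, ∫ x, F l x = g l * cf 0 f (k - l) := by
    intro l
    unfold cf ft
    rw [← integral_const_mul]
    refine integral_congr_ae (Filter.Eventually.of_forall fun x => ?_)
    have h3 : -(fr 0 (k - l)) = fr 0 l + -(fr 0 k) := by
      funext j
      simp only [fr, Pi.neg_apply, Pi.add_apply, Pi.sub_apply, Int.cast_sub, Pi.zero_apply]
      ring
    simp only [hF]
    rw [h3, H501.ex_add]
    ring
  calc ft (fun x => f x * Es 0 g x) (fr 0 k) = ∫ x, ∑' l, F l x := by
        unfold ft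
        refine integral_congr_ae (Filter.Eventually.of_forall fun x => ?_)
        simp only [hF]
        rw [tsum_mul_right, tsum_mul_left]
        rfl
    _ = ∑' l, ∫ x, F l x := h1.symm
    _ = ∑' l, g l * cf 0 f (k - l) := tsum_congr h2

/-- Decay of the coefficients of the product with a series. -/
lemma norm_ft_mul_Es {f : V n → ℂ} (hf : Continuous f) (hc : HasCompactSupport f) {g : Ix n → ℂ}
    (hg : RD g) {P : ℕ} {A : ℝ} (hA : ∀ l, wt l ^ P * ‖cf 0 f l‖ ≤ A) (k : Ix n) :
    wt k ^ P * ‖ft (fun x => f x * Es 0 g x) (fr 0 k)‖ ≤ A * nm P g := by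
  rw [ft_mul_Es hf hc hg]
  have hw : ∀ l : Ix n, 0 < wt l ^ P := fun l => pow_pos (H501.wt_pos l) P
  have hb : ∀ l, wt k ^ P * ‖g l * cf 0 f (k - l)‖ ≤ A * (wt l ^ P * ‖g l‖) := by
    intro l
    have h1 : wt k ^ P ≤ wt (k - l) ^ P * wt l ^ P := by
      rw [← mul_pow]
      exact pow_le_pow_left₀ (H501.wt_pos k).le (H501.wt_sub k l) P
    calc wt k ^ P * ‖g l * cf 0 f (k - l)‖ = wt k ^ P * (‖g l‖ * ‖cf 0 f (k - l)‖) := by
          rw [norm_mul]
      _ ≤ wt (k - l) ^ P * wt l ^ P * (‖g l‖ * ‖cf 0 f (k - l)‖) :=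
          mul_le_mul_of_nonneg_right h1 (mul_nonneg (norm_nonneg _) (norm_nonneg _))
      _ = (wt (k - l) ^ P * ‖cf 0 f (k - l)‖) * (wt l ^ P * ‖g l‖) := by ring
      _ ≤ A * (wt l ^ P * ‖g l‖) :=
          mul_le_mul_of_nonneg_right (hA _) (mul_nonneg (hw l).le (norm_nonneg _))
  have hs : Summable fun l => A * (wt l ^ P * ‖g l‖) := (hg P).mul_left A
  have hs' : Summable fun l => wt k ^ P * ‖g l * cf 0 f (k - l)‖ :=
    Summable.of_nonneg_of_le (fun l => mul_nonneg (hw k).le (norm_nonneg _)) hb hs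
  have hs'' : Summable fun l => ‖g l * cf 0 f (k - l)‖ :=
    (summable_mul_left_iff (hw k).ne').1 hs'
  calc wt k ^ P * ‖∑' l, g l * cf 0 f (k - l)‖ ≤ wt k ^ P * ∑' l, ‖g l * cf 0 f (k - l)‖ :=
        mul_le_mul_of_nonneg_left (norm_tsum_le_tsum_norm hs'') (hw k).le
    _ = ∑' l, wt k ^ P * ‖g l * cf 0 f (k - l)‖ := tsum_mul_left.symm
    _ ≤ ∑' l, A * (wt l ^ P * ‖g l‖) := hs'.tsum_le_tsum hb hs
    _ = A * nm P g := tsum_mul_left

/-- The value at frequency zero. -/
lemma ft_zero' {F : Fin n → V n → ℂ} (hF : ∀ i, Continuous (F i))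
    (hc : ∀ i, HasCompactSupport (F i)) (hd : ∀ ξ : V n, ∑ i, (ξ i : ℂ) * ft (F i) ξ = 0)
    (i : Fin n) : ft (F i) 0 = 0 := by
  have hcont : Continuous (ft (F i)) := H129.continuous_ft (hF i) (hc i)
  have hg : Continuous fun t : ℝ => ft (F i) (Pi.single i t) :=
    hcont.comp (continuous_pi fun l => by
      rcases eq_or_ne l i with h | h
      · subst h
        simp only [Pi.single_eq_same]
        exact continuous_id
      · simpa [Pi.single_eq_of_ne h] using continuous_const)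
  have hz : ∀ t ∈ ({0}ᶜ : Set ℝ), ft (F i) (Pi.single i t) = (fun _ => (0 : ℂ)) t := by
    intro t ht
    have ht' : t ≠ 0 := ht
    have h := hd (Pi.single i t)
    rw [Finset.sum_eq_single i] at h
    · rw [Pi.single_eq_same] at h
      rcases mul_eq_zero.1 h with h | h
      · exact absurd (Complex.ofReal_eq_zero.1 h) ht'
      · exact h
    · intro b _ hb
      rw [Pi.single_eq_of_ne hb]
      simp
    · intro h
      exact absurd (Finset.mem_univ i) h
  have h := Continuous.ext_on (dense_compl_singleton (0 : ℝ)) hg continuous_const hz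
  have h0 := congrFun h 0
  simpa using h0

lemma wr_fr (k : Ix n) : wr (fr 0 k) = wt k := by
  simp [wr, wt, fr]

lemma nr_fr_le (k : Ix n) : nr (fr 0 k) ≤ wt k := by
  unfold nr
  refine Real.sqrt_le_iff.2 ⟨(H501.wt_pos k).le, ?_⟩
  have h1 : ∀ j, (fr (0 : V n) k j) ^ 2 ≤ |(k j : ℝ)| * wt k := by
    intro j
    have h2 : |(k j : ℝ)| ≤ wt k := by
      have h3 : |(k j : ℝ)| ≤ ∑ j, |(k j : ℝ)| :=
        Finset.single_le_sum (f := fun j => |(k j : ℝ)|) (fun _ _ => abs_nonneg _)
          (Finset.mem_univ j)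
      unfold wt
      linarith
    have h4 : (fr (0 : V n) k j) ^ 2 = |(k j : ℝ)| * |(k j : ℝ)| := by
      simp only [fr, Pi.zero_apply, add_zero]
      rw [abs_mul_abs_self]
      ring
    rw [h4]
    exact mul_le_mul_of_nonneg_left h2 (abs_nonneg _)
  calc ∑ j, (fr (0 : V n) k j) ^ 2 ≤ ∑ j, |(k j : ℝ)| * wt k := Finset.sum_le_sum fun j _ => h1 j
    _ = (∑ j, |(k j : ℝ)|) * wt k := by rw [Finset.sum_mul]
    _ ≤ wt k ^ 2 := by
        have h5 : ∑ j, |(k j : ℝ)| ≤ wt k := by unfold wt; linarith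
        rw [sq]
        exact mul_le_mul_of_nonneg_right h5 (H501.wt_pos k).le

lemma one_le_nr_fr {k : Ix n} (hk : k ≠ 0) : 1 ≤ nr (fr 0 k) := by
  obtain ⟨j, hj⟩ := Function.ne_iff.1 hk
  have hj' : k j ≠ 0 := hj
  have h1 : (1 : ℝ) ≤ |(k j : ℝ)| := by
    have : (1 : ℤ) ≤ |k j| := Int.one_le_abs hj'
    exact_mod_cast this
  refine h1.trans ?_
  have := abs_le_nr (fr 0 k) j
  simpa [fr] using this

lemma term_le_nm {c : Ix n → ℂ} (hc : RD c) (P : ℕ) (k : Ix n) : wt k ^ P * ‖c k‖ ≤ nm P c :=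
  (hc P).le_tsum k fun l _ => mul_nonneg (pow_nonneg (H501.wt_pos l).le _) (norm_nonneg _)

lemma nm_mono {c : Ix n → ℂ} (hc : RD c) {P m : ℕ} (h : P ≤ m) : nm P c ≤ nm m c := by
  refine (hc P).tsum_le_tsum (fun k => ?_) (hc m)
  exact mul_le_mul_of_nonneg_right (pow_le_pow_right₀ (H501.one_le_wt k) h) (norm_nonneg _)

end H599

open H599

/-- Row CF_ABS. -/
theorem abs_row (hE : RowES2) (hA3 : RowA3) : RowABS := by
  intro n
  obtain ⟨M, C, hC0, hC⟩ := hE n
  rcases Nat.eq_zero_or_pos n with h0 | hn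
  · subst h0
    exact ⟨0, 0, 1, one_pos, fun Ω σ s _ _ _ g _ _ _ _ x => by ext i; exact i.elim0⟩
  have hn1 : (1 : ℝ) ≤ n := by exact_mod_cast hn
  set R : ℝ := C + (2 * n + 1) * (n * n) with hR
  have hR0 : 0 < R := by positivity
  have hRn : (n : ℝ) ≤ R := by
    have h1 : (n : ℝ) ≤ n * n := le_mul_of_one_le_left (by positivity) hn1
    have h2 : (n : ℝ) * n ≤ (2 * n + 1) * (n * n) :=
      le_mul_of_one_le_left (by positivity) (by linarith)
    rw [hR]
    linarith
  have hCR : C ≤ R := by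
    rw [hR]
    have : (0 : ℝ) ≤ (2 * n + 1) * (n * n) := by positivity
    linarith
  set ε : ℝ := 1 / (2 * R + 2 ^ (n + 8) * C) with hε
  have hden : 0 < 2 * R + 2 ^ (n + 8) * C := by positivity
  have hε0 : 0 < ε := by rw [hε]; positivity
  have hεR : R * ε ≤ 1 / 2 := by
    rw [hε, mul_one_div, div_le_div_iff₀ hden (by norm_num)]
    have : 0 ≤ 2 ^ (n + 8) * C := by positivity
    linarith
  have hεC : C * ε ≤ 1 := by
    have := mul_le_mul_of_nonneg_right hCR hε0.le
    linarith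
  have hεa : 2 * ε * (2 ^ (n + 2 + 3) * (2 * C)) ≤ 1 := by
    have h1 : 2 * ε * (2 ^ (n + 2 + 3) * (2 * C)) = ε * (2 ^ (n + 7) * C) := by ring
    rw [h1, hε, one_div, inv_mul_le_iff₀ hden, mul_one]
    have h2 : (2 : ℝ) ^ (n + 7) * C ≤ 2 ^ (n + 8) * C :=
      mul_le_mul_of_nonneg_right (pow_le_pow_right₀ (by norm_num) (by omega)) hC0.le
    linarith
  refine ⟨2 * n + 3, M, ε, hε0, ?_⟩
  intro Ω σ s hB hlg hσi g hg hgε hgau hnm
  have hΩ : Ω ⊆ core n := hB.sub.trans bal_sub
  have hts : ∀ i j, tsupport (df (sc σ) s i j) ⊆ core n := fun i j => tsupport_df hΩ hB.off i j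
  have hsup : ∀ i j, tsupport (df (sc σ) s i j) ⊆ cube n := fun i j =>
    (hts i j).trans H129.core_subset_cube
  have hcs : ∀ i j, HasCompactSupport (df (sc σ) s i j) := fun i j =>
    HasCompactSupport.of_support_subset_isCompact H129.isCompact_core
      ((subset_tsupport _).trans (hts i j))
  have hsm : ∀ i j, ContDiff ℝ ∞ (df (sc σ) s i j) := smooth_df hB.sσ hB.sm
  have hA : ∀ i j, RD (cf 0 (df (sc σ) s i j)) ∧
      ∀ x ∈ cube n, df (sc σ) s i j x = Es 0 (cf 0 (df (sc σ) s i j)) x := by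
    intro i j
    obtain ⟨C0, -, hC0'⟩ := hA3 n 0
    obtain ⟨h2, h3, -⟩ := hC0' (df (sc σ) s i j) (hsm i j) (hsup i j) 0 (by simp)
    exact ⟨h2, h3⟩
  have hEs : ∀ i j, Continuous (Es 0 (g i j)) := fun i j =>
    (H501.rowA1 0 (g i j) (hg i j)).1.continuous
  -- the supremum
  set T : Fin n × Fin n × Ix n → ℝ := fun p =>
    wt p.2.2 ^ (n + 1) * ‖cf 0 (df (sc σ) s p.1 p.2.1) p.2.2‖ with hT
  have hTε : ∀ p, T p ≤ ε := fun p =>
    (term_le_nm (hA _ _).1 (n + 1) _).trans ((nm_mono (hA _ _).1 (by omega)).trans (hnm _ _))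
  have hbdd : BddAbove (range T) := ⟨ε, by rintro _ ⟨p, rfl⟩; exact hTε p⟩
  haveI : Nonempty (Fin n) := ⟨⟨0, hn⟩⟩
  set a : ℝ := ⨆ p, T p with ha
  have hTa : ∀ p, T p ≤ a := fun p => le_ciSup hbdd p
  have hT0 : ∀ p, 0 ≤ T p := fun p =>
    mul_nonneg (pow_nonneg (H501.wt_pos _).le _) (norm_nonneg _)
  have ha0 : 0 ≤ a := (hT0 (Classical.arbitrary _)).trans (hTa _)
  have haε : a ≤ ε := ciSup_le hTε
  have hcfa : ∀ i j (k : Ix n), wt k ^ (n + 1) * ‖cf 0 (df (sc σ) s i j) k‖ ≤ a := fun i j k =>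
    hTa (i, j, k)
  -- the gauge identity
  have hcE : ∀ i j b, Continuous fun x => df (sc σ) s i j x * Es 0 (g j b) x := fun i j b =>
    (hsm i j).continuous.mul (hEs j b)
  have hsE : ∀ i j b, HasCompactSupport fun x => df (sc σ) s i j x * Es 0 (g j b) x :=
    fun i j b => (hcs i j).mul_right
  have hft : ∀ i b (ξ : V n), ft (fun x => df (sc σ) s i b x
      + ∑ j, df (sc σ) s i j x * Es 0 (g j b) x) ξ
      = ft (df (sc σ) s i b) ξ + ∑ j, ft (fun x => df (sc σ) s i j x * Es 0 (g j b) x) ξ := by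
    intro i b ξ
    exact ft_add_sum ((hsm i b).continuous.integrable_of_hasCompactSupport (hcs i b))
      (fun j => (hcE i j b).integrable_of_hasCompactSupport (hsE i j b)) ξ
  have hprod : ∀ i b (k : Ix n), wt k ^ (n + 1)
      * ‖∑ j, ft (fun x => df (sc σ) s i j x * Es 0 (g j b) x) (fr 0 k)‖ ≤ n * (a * ε) := by
    intro i b k
    have hw : 0 ≤ wt k ^ (n + 1) := pow_nonneg (H501.wt_pos k).le _
    calc wt k ^ (n + 1) * ‖∑ j, ft (fun x => df (sc σ) s i j x * Es 0 (g j b) x) (fr 0 k)‖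
        ≤ wt k ^ (n + 1) * ∑ j, ‖ft (fun x => df (sc σ) s i j x * Es 0 (g j b) x) (fr 0 k)‖ :=
          mul_le_mul_of_nonneg_left (norm_sum_le _ _) hw
      _ = ∑ j, wt k ^ (n + 1) * ‖ft (fun x => df (sc σ) s i j x * Es 0 (g j b) x) (fr 0 k)‖ := by
          rw [Finset.mul_sum]
      _ ≤ ∑ _j : Fin n, a * ε := by
          refine Finset.sum_le_sum fun j _ => ?_
          refine (norm_ft_mul_Es (hsm i j).continuous (hcs i j) (hg j b) (hcfa i j) k).trans ?_
          exact mul_le_mul_of_nonneg_left (hgε j b) ha0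
      _ = n * (a * ε) := by simp
  have hgk : ∀ b (k : Ix n), wt k ^ (n + 1)
      * ‖∑ i, ((fr 0 k i : ℝ) : ℂ) * cf 0 (df (sc σ) s i b) k‖
      ≤ n * nr (fr 0 k) * (n * (a * ε)) := by
    intro b k
    have hw : 0 ≤ wt k ^ (n + 1) := pow_nonneg (H501.wt_pos k).le _
    have h1 := hgau (fr 0 k) b
    simp only [hft] at h1
    have h2 : ∑ i, ((fr 0 k i : ℝ) : ℂ) * cf 0 (df (sc σ) s i b) k
        = -∑ i, ((fr 0 k i : ℝ) : ℂ)
          * ∑ j, ft (fun x => df (sc σ) s i j x * Es 0 (g j b) x) (fr 0 k) := by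
      rw [eq_neg_iff_add_eq_zero, ← Finset.sum_add_distrib]
      rw [← h1]
      exact Finset.sum_congr rfl fun i _ => by unfold cf; ring
    rw [h2, norm_neg]
    have hna : 0 ≤ (n : ℝ) * (a * ε) := by positivity
    calc wt k ^ (n + 1) * ‖∑ i, ((fr 0 k i : ℝ) : ℂ)
          * ∑ j, ft (fun x => df (sc σ) s i j x * Es 0 (g j b) x) (fr 0 k)‖
        ≤ wt k ^ (n + 1) * ∑ i, ‖((fr 0 k i : ℝ) : ℂ)
          * ∑ j, ft (fun x => df (sc σ) s i j x * Es 0 (g j b) x) (fr 0 k)‖ :=
          mul_le_mul_of_nonneg_left (norm_sum_le _ _) hw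
      _ = ∑ i, |fr 0 k i| * (wt k ^ (n + 1)
          * ‖∑ j, ft (fun x => df (sc σ) s i j x * Es 0 (g j b) x) (fr 0 k)‖) := by
          rw [Finset.mul_sum]
          refine Finset.sum_congr rfl fun i _ => ?_
          rw [norm_mul, Complex.norm_real, Real.norm_eq_abs]
          ring
      _ ≤ ∑ i, |fr 0 k i| * (n * (a * ε)) :=
          Finset.sum_le_sum fun i _ => mul_le_mul_of_nonneg_left (hprod i b k) (abs_nonneg _)
      _ = (∑ i, |fr 0 k i|) * (n * (a * ε)) := by rw [Finset.sum_mul]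
      _ ≤ n * nr (fr 0 k) * (n * (a * ε)) :=
          mul_le_mul_of_nonneg_right (sum_abs_le _) hna
  have hg0 : ∀ i b, ‖cf 0 (df (sc σ) s i b) 0‖ ≤ n * (a * ε) := by
    intro i b
    have h1 : ft (fun x => df (sc σ) s i b x
        + ∑ j, df (sc σ) s i j x * Es 0 (g j b) x) 0 = 0 := by
      refine ft_zero' (F := fun i x => df (sc σ) s i b x
        + ∑ j, df (sc σ) s i j x * Es 0 (g j b) x) (fun i => ?_) (fun i => ?_)
        (fun ξ => hgau ξ b) i
      · exact (hsm i b).continuous.add (continuous_finsetSum _ fun j _ => hcE i j b)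
      · refine HasCompactSupport.of_support_subset_isCompact H129.isCompact_core ?_
        intro x hx
        by_contra hc
        refine hx ?_
        have h2 : ∀ j, df (sc σ) s i j x = 0 := fun j =>
          df_off hB.off i j fun h => hc (hΩ h)
        simp [h2]
    rw [hft] at h1
    have h3 : fr (0 : V n) (0 : Ix n) = 0 := by
      funext l
      simp [fr]
    have h4 : cf 0 (df (sc σ) s i b) 0
        = -∑ j, ft (fun x => df (sc σ) s i j x * Es 0 (g j b) x) (fr 0 0) := by
      rw [eq_neg_iff_add_eq_zero]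
      unfold cf
      rw [h3]
      exact h1
    rw [h4, norm_neg]
    have h5 := hprod i b 0
    have h6 : wt (0 : Ix n) = 1 := by simp [wt]
    rwa [h6, one_pow, one_mul] at h5
  -- the absorption
  have ha00 : a ≤ 0 := by
    refine H129.absorb (P := n + 2) (C := 2 * C) (e := 2 * ε) (by omega) (by positivity) ha0 hεa
      (by linarith) ?_
    intro t ht hta
    have ht' : (1 : ℝ) ≤ t := by exact_mod_cast ht
    have htP : 0 < (t : ℝ) ^ (n + 2) := by positivity
    have hCt : C * (t : ℝ) ^ (n + 2) * a ≤ 1 / 4 := by linarith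
    have hall : ∀ p, T p ≤ R * ε * a + C * (t : ℝ) ^ (n + 2) * a ^ 2
        + ((t : ℝ) ^ (n + 2))⁻¹ * ε := by
      rintro ⟨i, j, k⟩
      simp only [hT]
      have p1 : 0 ≤ R * ε * a := by positivity
      have p2 : 0 ≤ C * (t : ℝ) ^ (n + 2) * a ^ 2 := by positivity
      have p3 : 0 ≤ ((t : ℝ) ^ (n + 2))⁻¹ * ε := by positivity
      have hwp : 0 < wt k := H501.wt_pos k
      have hw1 : 1 ≤ wt k := H501.one_le_wt k
      rcases eq_or_ne k 0 with hk0 | hk0
      · rw [hk0]
        have h6 : wt (0 : Ix n) = 1 := by simp [wt]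
        rw [h6, one_pow, one_mul]
        have h7 : (n : ℝ) * (a * ε) ≤ R * ε * a := by
          calc (n : ℝ) * (a * ε) ≤ R * (a * ε) :=
                mul_le_mul_of_nonneg_right hRn (by positivity)
            _ = R * ε * a := by ring
        linarith [hg0 i j]
      rcases le_or_gt (wt k) t with hkt | hkt
      · -- low frequencies
        set X : ℝ := nr (fr 0 k) with hX
        have hX1 : 1 ≤ X := one_le_nr_fr hk0
        have hXw : X ≤ wt k := nr_fr_le k
        have hXp : 0 < X := by linarith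
        set W : ℝ := wt k ^ (n + 1) with hW
        have hWp : 0 < W := pow_pos hwp _
        have htt : (t : ℝ) ≤ (t : ℝ) ^ (n + 2) := le_self_pow₀ ht' (by omega)
        have hcond : C * X * a ≤ 1 := by
          have h8 : C * X * a ≤ C * (t : ℝ) ^ (n + 2) * a :=
            mul_le_mul_of_nonneg_right (mul_le_mul_of_nonneg_left (by linarith) hC0.le) ha0
          linarith
        have hest := alg_bound (H := fun i j => cf 0 (df (sc σ) s i j) k) (ξ := fr 0 k)
          (fun i j => by simp only [df_symm hB.sy i j]) hX1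
          (B := (C * X ^ 2 * (ε * a) + C * X ^ 3 * a ^ 2 * W) / W)
          (G := n * X * (n * (a * ε)) / W) (by positivity) ?_ ?_ i j
        · rw [← hX] at hest
          have h9 : (C * X ^ 2 * (ε * a) + C * X ^ 3 * a ^ 2 * W) / W
              + (2 * n + 1) * X * (n * X * (n * (a * ε)) / W)
              = X ^ 2 * ((R * ε * a + C * X * W * a ^ 2) / W) := by
            rw [hR]
            field_simp
            ring
          rw [h9] at hest
          have h10 := le_of_mul_le_mul_left hest (by positivity : (0 : ℝ) < X ^ 2)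
          rw [le_div_iff₀ hWp] at h10
          have h11 : C * X * W * a ^ 2 ≤ C * (t : ℝ) ^ (n + 2) * a ^ 2 := by
            refine mul_le_mul_of_nonneg_right ?_ (sq_nonneg a)
            rw [mul_assoc]
            refine mul_le_mul_of_nonneg_left ?_ hC0.le
            calc X * W ≤ wt k * W := mul_le_mul_of_nonneg_right hXw hWp.le
              _ = wt k ^ (n + 2) := by rw [hW]; ring
              _ ≤ (t : ℝ) ^ (n + 2) := pow_le_pow_left₀ hwp.le hkt _
          calc W * ‖cf 0 (df (sc σ) s i j) k‖ = ‖cf 0 (df (sc σ) s i j) k‖ * W := mul_comm _ _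
            _ ≤ R * ε * a + C * X * W * a ^ 2 := h10
            _ ≤ _ := by linarith
        · intro q hq hqo
          have h8 := hC Ω σ s hB a ε hlg hσi hεC (fun i j k => hcfa i j k) (fr 0 k) q hq hqo
            hX1 hcond
          rw [wr_fr] at h8
          rw [le_div_iff₀ hWp, mul_comm]
          exact h8
        · intro b
          rw [le_div_iff₀ hWp, mul_comm]
          exact hgk b k
      · -- high frequencies
        have h8 : ((t : ℝ) ^ (n + 2)) * (wt k ^ (n + 1) * ‖cf 0 (df (sc σ) s i j) k‖) ≤ ε := by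
          calc ((t : ℝ) ^ (n + 2)) * (wt k ^ (n + 1) * ‖cf 0 (df (sc σ) s i j) k‖)
              ≤ wt k ^ (n + 2) * (wt k ^ (n + 1) * ‖cf 0 (df (sc σ) s i j) k‖) := by
                refine mul_le_mul_of_nonneg_right ?_ (by positivity)
                exact pow_le_pow_left₀ (by positivity) hkt.le _
            _ = wt k ^ (2 * n + 3) * ‖cf 0 (df (sc σ) s i j) k‖ := by
                rw [← mul_assoc, ← pow_add]
                congr 2
                omega
            _ ≤ nm (2 * n + 3) (cf 0 (df (sc σ) s i j)) := term_le_nm (hA i j).1 _ k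
            _ ≤ ε := hnm i j
        have h9 : wt k ^ (n + 1) * ‖cf 0 (df (sc σ) s i j) k‖ ≤ ((t : ℝ) ^ (n + 2))⁻¹ * ε := by
          rw [← div_eq_inv_mul, le_div_iff₀ htP, mul_comm]
          exact h8
        linarith
    have hle : a ≤ R * ε * a + C * (t : ℝ) ^ (n + 2) * a ^ 2 + ((t : ℝ) ^ (n + 2))⁻¹ * ε :=
      ciSup_le hall
    have hhalf : R * ε * a ≤ 1 / 2 * a := mul_le_mul_of_nonneg_right hεR ha0
    linarith
  have hcz : ∀ i j k, cf 0 (df (sc σ) s i j) k = 0 := by
    intro i j k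
    have h1 : wt k ^ (n + 1) * ‖cf 0 (df (sc σ) s i j) k‖ ≤ 0 := (hcfa i j k).trans ha00
    have h2 : 0 < wt k ^ (n + 1) := pow_pos (H501.wt_pos k) _
    have h3 : ‖cf 0 (df (sc σ) s i j) k‖ ≤ 0 := by
      by_contra h4
      push Not at h4
      have := mul_pos h2 h4
      linarith
    exact norm_le_zero_iff.1 h3
  intro x
  by_cases hx : x ∈ Ω
  · ext i j
    have h2 := (hA i j).2 x (H129.core_subset_cube (hΩ hx))
    have h3 : Es 0 (cf 0 (df (sc σ) s i j)) x = 0 := by
      unfold Es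
      simp [hcz i j]
    rw [h3] at h2
    have h4 : s x i j - sc σ x i j = 0 := Complex.ofReal_eq_zero.1 h2
    linarith
  · exact hB.off x hx

/-- Row CF_ABS, in the form asked for by the captain. -/
theorem abs (hE : RowES2) (_ : RowA2) (hA3 : RowA3) : RowABS := abs_row hE hA3

end Vale.Agent.P088.LR.CF
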