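import Vale.Agent.P088.H442.Defs3

/-!
# P088, conformally flat metrics: the linear algebra of row CF_ABS
-/

open MeasureTheory Set
open scoped ContDiff Matrix

noncomputable section

namespace Vale.Agent.P088.LR.CF

namespace H599

variable {n : ℕ}

/-- The complex bilinear form on real vectors. -/
def bR (H : Fin n → Fin n → ℂ) (u v : V n) : ℂ := ∑ i, ∑ j, (u i : ℂ) * v j * H i j

lemma bR_eq (H : Fin n → Fin n → ℂ) (u v : V n) :
    bR H u v = ∑ j, (v j : ℂ) * ∑ i, (u i : ℂ) * H i j := by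
  unfold bR
  rw [Finset.sum_comm]
  refine Finset.sum_congr rfl fun j _ => ?_
  rw [Finset.mul_sum]
  exact Finset.sum_congr rfl fun i _ => by ring

lemma bR_comm {H : Fin n → Fin n → ℂ} (hs : ∀ i j, H i j = H j i) (u v : V n) :
    bR H u v = bR H v u := by
  unfold bR
  rw [Finset.sum_comm]
  refine Finset.sum_congr rfl fun i _ => Finset.sum_congr rfl fun j _ => ?_
  rw [hs j i]
  ring

lemma bR_add_left (H : Fin n → Fin n → ℂ) (u u' v : V n) :
    bR H (u + u') v = bR H u v + bR H u' v := by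
  unfold bR
  simp only [← Finset.sum_add_distrib]
  refine Finset.sum_congr rfl fun i _ => Finset.sum_congr rfl fun j _ => ?_
  simp only [Pi.add_apply, Complex.ofReal_add]
  ring

lemma bR_smul_left (H : Fin n → Fin n → ℂ) (c : ℝ) (u v : V n) :
    bR H (c • u) v = c * bR H u v := by
  unfold bR
  simp only [Finset.mul_sum]
  refine Finset.sum_congr rfl fun i _ => Finset.sum_congr rfl fun j _ => ?_
  simp only [Pi.smul_apply, smul_eq_mul, Complex.ofReal_mul]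
  ring

lemma bR_add_right {H : Fin n → Fin n → ℂ} (hs : ∀ i j, H i j = H j i) (u v v' : V n) :
    bR H u (v + v') = bR H u v + bR H u v' := by
  rw [bR_comm hs, bR_add_left, bR_comm hs v, bR_comm hs v']

lemma bR_smul_right {H : Fin n → Fin n → ℂ} (hs : ∀ i j, H i j = H j i) (c : ℝ) (u v : V n) :
    bR H u (c • v) = c * bR H u v := by
  rw [bR_comm hs, bR_smul_left, bR_comm hs v]

lemma bR_single (H : Fin n → Fin n → ℂ) (u : V n) (b : Fin n) :
    bR H u (Pi.single b 1) = ∑ i, (u i : ℂ) * H i b := by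
  rw [bR_eq, Finset.sum_eq_single b]
  · simp
  · intro j _ hj
    simp [Pi.single_eq_of_ne hj]
  · intro h
    exact absurd (Finset.mem_univ b) h

lemma bR_single_single (H : Fin n → Fin n → ℂ) (a b : Fin n) :
    bR H (Pi.single a 1) (Pi.single b 1) = H a b := by
  rw [bR_single, Finset.sum_eq_single a]
  · simp
  · intro j _ hj
    simp [Pi.single_eq_of_ne hj]
  · intro h
    exact absurd (Finset.mem_univ a) h

lemma nr_sq (u : V n) : nr u ^ 2 = ∑ j, u j ^ 2 :=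
  Real.sq_sqrt (Finset.sum_nonneg fun _ _ => sq_nonneg _)

lemma nr_nonneg (u : V n) : 0 ≤ nr u := Real.sqrt_nonneg _

lemma abs_le_nr (u : V n) (j : Fin n) : |u j| ≤ nr u := by
  refine Real.abs_le_sqrt ?_
  exact Finset.single_le_sum (f := fun j => u j ^ 2) (fun _ _ => sq_nonneg _) (Finset.mem_univ j)

lemma sum_abs_le (u : V n) : ∑ j, |u j| ≤ n * nr u := by
  calc ∑ j, |u j| ≤ ∑ _j : Fin n, nr u := Finset.sum_le_sum fun j _ => abs_le_nr u j
    _ = n * nr u := by simp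

lemma nr_smul (c : ℝ) (u : V n) : nr (c • u) = |c| * nr u := by
  unfold nr
  have h : ∑ j, (c • u) j ^ 2 = c ^ 2 * ∑ j, u j ^ 2 := by
    rw [Finset.mul_sum]
    exact Finset.sum_congr rfl fun j _ => by simp only [Pi.smul_apply, smul_eq_mul]; ring
  rw [h, Real.sqrt_mul (sq_nonneg c), Real.sqrt_sq_eq_abs]

/-- The bound on the form with one argument `ξ`. -/
lemma bR_xi {H : Fin n → Fin n → ℂ} {ξ : V n} {G : ℝ} (hG : ∀ a, ‖∑ i, (ξ i : ℂ) * H i a‖ ≤ G)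
    (v : V n) : ‖bR H ξ v‖ ≤ (∑ j, |v j|) * G := by
  rw [bR_eq, Finset.sum_mul]
  refine (norm_sum_le _ _).trans (Finset.sum_le_sum fun j _ => ?_)
  rw [norm_mul, Complex.norm_real, Real.norm_eq_abs]
  exact mul_le_mul_of_nonneg_left (hG j) (abs_nonneg _)

/-- The quadratic form on all vectors orthogonal to `ξ`. -/
lemma quad_bound {H : Fin n → Fin n → ℂ} {ξ : V n} {B G : ℝ} (hB : 0 ≤ B)
    (hQ : ∀ q : V n, nr q = 1 → ∑ j, q j * ξ j = 0 →
      ‖((nr ξ : ℝ) : ℂ) ^ 2 * bR H q q + bR H ξ ξ‖ ≤ B)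
    (hG : ∀ a, ‖∑ i, (ξ i : ℂ) * H i a‖ ≤ G) (hG0 : 0 ≤ G)
    (u : V n) (hu : ∑ j, u j * ξ j = 0) :
    nr ξ ^ 2 * ‖bR H u u‖ ≤ (∑ j, u j ^ 2) * (B + n * nr ξ * G) := by
  have hC : 0 ≤ B + n * nr ξ * G :=
    add_nonneg hB (mul_nonneg (mul_nonneg (Nat.cast_nonneg n) (nr_nonneg ξ)) hG0)
  rcases eq_or_ne (nr u) 0 with h0 | h0
  · have hz : u = 0 := by
      funext j
      have h1 := abs_le_nr u j
      rw [h0] at h1
      exact abs_eq_zero.1 (le_antisymm h1 (abs_nonneg _))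
    subst hz
    have h2 : bR H (0 : V n) 0 = 0 := by simp [bR]
    rw [h2, norm_zero, mul_zero]
    exact mul_nonneg (Finset.sum_nonneg fun _ _ => sq_nonneg _) hC
  · have hpos : 0 < nr u := lt_of_le_of_ne (nr_nonneg u) (Ne.symm h0)
    set q : V n := (nr u)⁻¹ • u with hq
    have h1 : nr q = 1 := by
      rw [hq, nr_smul, abs_of_pos (inv_pos.2 hpos), inv_mul_cancel₀ h0]
    have h2 : ∑ j, q j * ξ j = 0 := by
      have : ∑ j, q j * ξ j = (nr u)⁻¹ * ∑ j, u j * ξ j := by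
        rw [Finset.mul_sum]
        exact Finset.sum_congr rfl fun j _ => by
          simp only [hq, Pi.smul_apply, smul_eq_mul]; ring
      rw [this, hu, mul_zero]
    have h3 : u = nr u • q := by
      rw [hq, smul_smul, mul_inv_cancel₀ h0, one_smul]
    have h4 : ‖bR H u u‖ = nr u ^ 2 * ‖bR H q q‖ := by
      have h5 : bR H u u = (nr u : ℂ) ^ 2 * bR H q q := by
        unfold bR
        simp only [Finset.mul_sum]
        refine Finset.sum_congr rfl fun i _ => Finset.sum_congr rfl fun j _ => ?_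
        have hi : u i = nr u * q i := by
          conv_lhs => rw [h3]
          rfl
        have hj : u j = nr u * q j := by
          conv_lhs => rw [h3]
          rfl
        rw [hi, hj]
        push_cast
        ring
      rw [h5, norm_mul, norm_pow, Complex.norm_real, Real.norm_eq_abs, abs_of_pos hpos]
    have h6 : ‖bR H ξ ξ‖ ≤ n * nr ξ * G :=
      (bR_xi hG ξ).trans (mul_le_mul_of_nonneg_right (sum_abs_le ξ) hG0)
    have h7 : nr ξ ^ 2 * ‖bR H q q‖ ≤ B + n * nr ξ * G := by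
      have h8 : ‖((nr ξ : ℝ) : ℂ) ^ 2 * bR H q q‖ = nr ξ ^ 2 * ‖bR H q q‖ := by
        rw [norm_mul, norm_pow, Complex.norm_real, Real.norm_eq_abs, abs_of_nonneg (nr_nonneg ξ)]
      rw [← h8]
      have h9 : ((nr ξ : ℝ) : ℂ) ^ 2 * bR H q q
          = (((nr ξ : ℝ) : ℂ) ^ 2 * bR H q q + bR H ξ ξ) - bR H ξ ξ := by ring
      rw [h9]
      exact (norm_sub_le _ _).trans (add_le_add (hQ q h1 h2) h6)
    rw [h4, ← nr_sq u]
    calc nr ξ ^ 2 * (nr u ^ 2 * ‖bR H q q‖) = nr u ^ 2 * (nr ξ ^ 2 * ‖bR H q q‖) := by ring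
      _ ≤ nr u ^ 2 * (B + n * nr ξ * G) := mul_le_mul_of_nonneg_left h7 (sq_nonneg _)

/-- The projection of `e_a` to the orthogonal complement of `ξ`. -/
def pa (ξ : V n) (a : Fin n) : V n := Pi.single a 1 + (-(ξ a / nr ξ ^ 2)) • ξ

lemma pa_orth {ξ : V n} (hξ : nr ξ ≠ 0) (a : Fin n) : ∑ j, pa ξ a j * ξ j = 0 := by
  have h : ∀ j, pa ξ a j * ξ j
      = (if j = a then ξ j else 0) + (-(ξ a / nr ξ ^ 2)) * ξ j ^ 2 := by
    intro j
    simp only [pa, Pi.add_apply, Pi.smul_apply, smul_eq_mul, Pi.single_apply]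
    split_ifs <;> ring
  simp only [h, Finset.sum_add_distrib, ← Finset.mul_sum, ← nr_sq, Finset.sum_ite_eq',
    Finset.mem_univ, if_true]
  field_simp
  ring

lemma pa_sq {ξ : V n} (hξ : nr ξ ≠ 0) (a : Fin n) : ∑ j, pa ξ a j ^ 2 ≤ 1 := by
  have h : ∀ j, pa ξ a j ^ 2
      = (if j = a then 1 + 2 * (-(ξ a / nr ξ ^ 2)) * ξ j else 0)
        + (-(ξ a / nr ξ ^ 2)) ^ 2 * ξ j ^ 2 := by
    intro j
    simp only [pa, Pi.add_apply, Pi.smul_apply, smul_eq_mul, Pi.single_apply]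
    split_ifs <;> ring
  simp only [h, Finset.sum_add_distrib, ← Finset.mul_sum, ← nr_sq, Finset.sum_ite_eq',
    Finset.mem_univ, if_true]
  have h1 : 1 + 2 * (-(ξ a / nr ξ ^ 2)) * ξ a + (-(ξ a / nr ξ ^ 2)) ^ 2 * nr ξ ^ 2
      = 1 - (ξ a / nr ξ) ^ 2 := by
    field_simp
    ring
  rw [h1]
  linarith [sq_nonneg (ξ a / nr ξ)]

lemma pa_abs {ξ : V n} (hξ : nr ξ ≠ 0) (a j : Fin n) : |pa ξ a j| ≤ 1 := by
  have h := (Finset.single_le_sum (f := fun j => pa ξ a j ^ 2) (fun _ _ => sq_nonneg _)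
    (Finset.mem_univ j)).trans (pa_sq hξ a)
  exact (sq_le_one_iff_abs_le_one _).1 h

/-- Every entry of `H` is controlled. -/
lemma alg_bound {H : Fin n → Fin n → ℂ} (hs : ∀ i j, H i j = H j i) {ξ : V n} (h1 : 1 ≤ nr ξ)
    {B G : ℝ} (hB : 0 ≤ B)
    (hQ : ∀ q : V n, nr q = 1 → ∑ j, q j * ξ j = 0 →
      ‖((nr ξ : ℝ) : ℂ) ^ 2 * bR H q q + bR H ξ ξ‖ ≤ B)
    (hG : ∀ a, ‖∑ i, (ξ i : ℂ) * H i a‖ ≤ G) (a b : Fin n) :
    nr ξ ^ 2 * ‖H a b‖ ≤ B + (2 * n + 1) * nr ξ * G := by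
  have hX : 0 < nr ξ := by linarith
  have hX0 : nr ξ ≠ 0 := hX.ne'
  have hG0 : 0 ≤ G := (norm_nonneg _).trans (hG a)
  have hn : (0 : ℝ) ≤ n := Nat.cast_nonneg n
  set D := B + n * nr ξ * G with hD
  have hD0 : 0 ≤ D := add_nonneg hB (mul_nonneg (mul_nonneg hn hX.le) hG0)
  -- polarization
  have hpol : nr ξ ^ 2 * ‖bR H (pa ξ a) (pa ξ b)‖ ≤ D := by
    have e1 : 4 * bR H (pa ξ a) (pa ξ b)
        = bR H (pa ξ a + pa ξ b) (pa ξ a + pa ξ b)
          - bR H (pa ξ a + (-1 : ℝ) • pa ξ b) (pa ξ a + (-1 : ℝ) • pa ξ b) := by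
      rw [bR_add_left, bR_add_right hs, bR_add_right hs, bR_add_left, bR_add_right hs,
        bR_add_right hs, bR_smul_left, bR_smul_right hs, bR_smul_left, bR_smul_right hs,
        bR_comm hs (pa ξ b) (pa ξ a)]
      push_cast
      ring
    have o1 : ∑ j, (pa ξ a + pa ξ b) j * ξ j = 0 := by
      have := pa_orth hX0 a
      have h2 := pa_orth hX0 b
      simp only [Pi.add_apply, add_mul, Finset.sum_add_distrib, this, h2, add_zero]
    have o2 : ∑ j, (pa ξ a + (-1 : ℝ) • pa ξ b) j * ξ j = 0 := by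
      have h3 := pa_orth hX0 a
      have h2 := pa_orth hX0 b
      have h4 : ∀ j, (pa ξ a + (-1 : ℝ) • pa ξ b) j * ξ j
          = pa ξ a j * ξ j - pa ξ b j * ξ j := by
        intro j
        simp only [Pi.add_apply, Pi.smul_apply, smul_eq_mul]
        ring
      simp only [h4, Finset.sum_sub_distrib, h3, h2, sub_zero]
    have q1 := quad_bound hB hQ hG hG0 _ o1
    have q2 := quad_bound hB hQ hG hG0 _ o2
    have hsum : ∑ j, (pa ξ a + pa ξ b) j ^ 2 + ∑ j, (pa ξ a + (-1 : ℝ) • pa ξ b) j ^ 2 ≤ 4 := by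
      have h5 : ∑ j, (pa ξ a + pa ξ b) j ^ 2 + ∑ j, (pa ξ a + (-1 : ℝ) • pa ξ b) j ^ 2
          = 2 * ∑ j, pa ξ a j ^ 2 + 2 * ∑ j, pa ξ b j ^ 2 := by
        rw [Finset.mul_sum, Finset.mul_sum, ← Finset.sum_add_distrib, ← Finset.sum_add_distrib]
        refine Finset.sum_congr rfl fun j _ => ?_
        simp only [Pi.add_apply, Pi.smul_apply, smul_eq_mul]
        ring
      rw [h5]
      linarith [pa_sq hX0 a, pa_sq hX0 b]
    have h6 : 4 * (nr ξ ^ 2 * ‖bR H (pa ξ a) (pa ξ b)‖)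
        ≤ (∑ j, (pa ξ a + pa ξ b) j ^ 2) * D + (∑ j, (pa ξ a + (-1 : ℝ) • pa ξ b) j ^ 2) * D := by
      have h7 : 4 * (nr ξ ^ 2 * ‖bR H (pa ξ a) (pa ξ b)‖)
          = nr ξ ^ 2 * ‖(4 : ℂ) * bR H (pa ξ a) (pa ξ b)‖ := by
        rw [norm_mul]
        norm_num
        ring
      rw [h7, e1]
      refine (mul_le_mul_of_nonneg_left (norm_sub_le _ _) (sq_nonneg _)).trans ?_
      rw [mul_add]
      exact add_le_add q1 q2
    have h8 : (∑ j, (pa ξ a + pa ξ b) j ^ 2) * D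
        + (∑ j, (pa ξ a + (-1 : ℝ) • pa ξ b) j ^ 2) * D ≤ 4 * D := by
      rw [← add_mul]
      exact mul_le_mul_of_nonneg_right hsum hD0
    linarith
  -- decomposition
  have hdec : ∀ c : Fin n, (Pi.single c (1 : ℝ) : V n) = pa ξ c + (ξ c / nr ξ ^ 2) • ξ := by
    intro c
    unfold pa
    rw [add_assoc, ← add_smul]
    simp
  have hmain : H a b = bR H (pa ξ a) (pa ξ b) + ((ξ b / nr ξ ^ 2 : ℝ) : ℂ) * bR H (pa ξ a) ξ
      + ((ξ a / nr ξ ^ 2 : ℝ) : ℂ) * bR H ξ (Pi.single b 1) := by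
    conv_lhs => rw [← bR_single_single H a b, hdec a, bR_add_left, bR_smul_left]
    rw [add_left_inj]
    conv_lhs => rw [hdec b, bR_add_right hs, bR_smul_right hs]
  have t1 : nr ξ ^ 2 * ‖((ξ b / nr ξ ^ 2 : ℝ) : ℂ) * bR H (pa ξ a) ξ‖ ≤ n * nr ξ * G := by
    rw [norm_mul, Complex.norm_real, Real.norm_eq_abs, abs_div, abs_of_nonneg (sq_nonneg (nr ξ)),
      bR_comm hs]
    have h2 : ‖bR H ξ (pa ξ a)‖ ≤ n * G := by
      refine (bR_xi hG _).trans (mul_le_mul_of_nonneg_right ?_ hG0)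
      calc ∑ j, |pa ξ a j| ≤ ∑ _j : Fin n, (1 : ℝ) := Finset.sum_le_sum fun j _ => pa_abs hX0 a j
        _ = n := by simp
    have h3 : nr ξ ^ 2 * (|ξ b| / nr ξ ^ 2 * ‖bR H ξ (pa ξ a)‖) = |ξ b| * ‖bR H ξ (pa ξ a)‖ := by
      field_simp
    rw [h3]
    calc |ξ b| * ‖bR H ξ (pa ξ a)‖ ≤ nr ξ * (n * G) :=
          mul_le_mul (abs_le_nr ξ b) h2 (norm_nonneg _) hX.le
      _ = n * nr ξ * G := by ring
  have t2 : nr ξ ^ 2 * ‖((ξ a / nr ξ ^ 2 : ℝ) : ℂ) * bR H ξ (Pi.single b 1)‖ ≤ nr ξ * G := by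
    rw [norm_mul, Complex.norm_real, Real.norm_eq_abs, abs_div, abs_of_nonneg (sq_nonneg (nr ξ)),
      bR_single]
    have h3 : nr ξ ^ 2 * (|ξ a| / nr ξ ^ 2 * ‖∑ i, (ξ i : ℂ) * H i b‖)
        = |ξ a| * ‖∑ i, (ξ i : ℂ) * H i b‖ := by
      field_simp
    rw [h3]
    exact mul_le_mul (abs_le_nr ξ a) (hG b) (norm_nonneg _) hX.le
  calc nr ξ ^ 2 * ‖H a b‖
      ≤ nr ξ ^ 2 * (‖bR H (pa ξ a) (pa ξ b)‖ + ‖((ξ b / nr ξ ^ 2 : ℝ) : ℂ) * bR H (pa ξ a) ξ‖
        + ‖((ξ a / nr ξ ^ 2 : ℝ) : ℂ) * bR H ξ (Pi.single b 1)‖) := by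
        refine mul_le_mul_of_nonneg_left ?_ (sq_nonneg _)
        conv_lhs => rw [hmain]
        exact norm_add₃_le
    _ ≤ D + n * nr ξ * G + nr ξ * G := by
        rw [mul_add, mul_add]
        exact add_le_add (add_le_add hpol t1) t2
    _ = B + (2 * n + 1) * nr ξ * G := by rw [hD]; ring

end H599

end Vale.Agent.P088.LR.CF
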