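import Vale.Agent.P088.H393.Est3
import Vale.Agent.P088.H442.Defs3

/-!
# P088, row CF_CGO, the analytic half: a solution from the coefficient equation
-/

open MeasureTheory Set
open scoped ContDiff Matrix

noncomputable section

namespace Vale.Agent.P088.LR.CF.H599

open Vale.Agent.P088.LR Vale.Agent.P088.LR.CF Vale.Agent.P088.LR.H393

variable {n : ℕ}

/-- `2πi (k + θ) + z`. -/
def lm (θ : V n) (z : Fin n → ℂ) (k : Ix n) (j : Fin n) : ℂ :=
  2 * Real.pi * Complex.I * ((fr θ k j : ℝ) : ℂ) + z j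

theorem lm_eq_lmz (i₀ : Fin n) (z : Fin n → ℂ) (k : Ix n) (j : Fin n) :
    lmz i₀ z k j = lm (th0 i₀) z k j := rfl

/-- The solution `e^{z·x} (1 + Es θ c)`. -/
def WS (z : Fin n → ℂ) (θ : V n) (c : Ix n → ℂ) (x : V n) : ℂ :=
  Complex.exp (∑ j, z j * x j) * (1 + Es θ c x)

theorem WS_eq (z : Fin n → ℂ) (θ : V n) (c : Ix n → ℂ) :
    WS z θ c = fun x => EE z x * (1 + Es θ c x) := by
  funext x
  unfold WS EE
  rw [LL_apply]

theorem WS_contDiff (hA1 : RowA1) (z : Fin n → ℂ) (θ : V n) {c : Ix n → ℂ} (hc : RD c) :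
    ContDiff ℝ ∞ (WS z θ c) := by
  rw [WS_eq]
  exact (EE_contDiff _).mul (contDiff_const.add (hA1 θ c hc).1)

theorem pd_WS (hA1 : RowA1) (z : Fin n → ℂ) (θ : V n) {c : Ix n → ℂ} (hc : RD c)
    (y : Fin n → Ix n → ℂ) (hyc : ∀ i k, y i k = lm θ z k i * c k) (j : Fin n) (x : V n) :
    pd j (WS z θ c) x = EE z x * (z j + Es θ (y j) x) := by
  have h := pd_EE_mul hA1 z θ 1 hc j x
  have h2 : (fun k => (2 * Real.pi * Complex.I * ((fr θ k j : ℝ) : ℂ) + z j) * c k)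
      = y j := by
    funext k
    rw [hyc]
    rfl
  rw [h2, mul_one] at h
  rw [WS_eq]
  exact h

theorem rd_lm {Φ : Ix n → ℂ} (hΦ : RD Φ) (θ : V n) (z : Fin n → ℂ) (i : Fin n) :
    RD fun k => lm θ z k i * Φ k := by
  have := rd_add (rd_fr hΦ θ i) (rd_const_mul hΦ (z i))
  refine (iff_of_eq (congrArg RD ?_)).mp this
  funext k
  unfold lm
  ring

/-- The solution from the coefficient equation. -/
theorem sol_of_coeff (hA1 : RowA1) (hA2 : RowA2) {z : Fin n → ℂ} (hz : ∑ j, z j ^ 2 = 0)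
    (θ : V n) (H : Fin n → Fin n → V n → ℂ) (Λ : Fin n → V n → ℂ)
    (h g : Fin n → Fin n → Ix n → ℂ) (l m : Fin n → Ix n → ℂ)
    (hh : ∀ i j, RD (h i j)) (hg : ∀ i j, RD (g i j)) (hl : ∀ j, RD (l j)) (hm : ∀ j, RD (m j))
    (e0 : ∀ i j, ∀ x ∈ cube n, H i j x = Es 0 (h i j) x)
    (e1 : ∀ i j, ∀ x ∈ cube n, H i j x = Es θ (g i j) x)
    (f0 : ∀ j, ∀ x ∈ cube n, Λ j x = Es 0 (l j) x)
    (f1 : ∀ j, ∀ x ∈ cube n, Λ j x = Es θ (m j) x)
    {y : Fin n → Ix n → ℂ} {c : Ix n → ℂ} (hy : ∀ i, RD (y i)) (hc : RD c)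
    (hyc : ∀ i k, y i k = lm θ z k i * c k)
    (heq : ∀ k, (∑ j, lm θ z k j ^ 2) * c k +
      (∑ r, lm θ z k r * ∑ j, (z j * g r j k + cv (h r j) (y j) k)) +
      ∑ j, (z j * m j k + cv (l j) (y j) k) = 0) :
    Sol z θ H Λ y (fun x => Complex.exp (∑ j, z j * x j) * (1 + Es θ c x)) := by
  change Sol z θ H Λ y (WS z θ c)
  set F : Fin n → Ix n → ℂ := fun i k => ∑ j, (z j * g i j k + cv (h i j) (y j) k) with hF
  set G : Ix n → ℂ := fun k => ∑ j, (z j * m j k + cv (l j) (y j) k) with hG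
  have hcv : ∀ i j, RD (cv (h i j) (y j)) := fun i j => (hA2 0 0 _ _ (hh i j) (hy j)).1
  have hcl : ∀ j, RD (cv (l j) (y j)) := fun j => (hA2 0 0 _ _ (hl j) (hy j)).1
  have hFRD : ∀ i, RD (F i) := fun i =>
    rd_sum (fun j => rd_add (rd_const_mul (hg i j) (z j)) (hcv i j))
  have hGRD : RD G := rd_sum (fun j => rd_add (rd_const_mul (hm j) (z j)) (hcl j))
  have hΦ : ∀ i, RD fun k => y i k + F i k := fun i => rd_add (hy i) (hFRD i)
  refine ⟨hy, WS_contDiff hA1 z θ hc, fun i x => ?_, ?_⟩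
  · rw [pd_WS hA1 z θ hc y hyc]
    unfold EE
    rw [LL_apply]
  -- the flux on the cube
  have flux : ∀ i, ∀ x ∈ cube n, (pd i (WS z θ c) x + ∑ j, H i j x * pd j (WS z θ c) x) =
      EE z x * (z i + Es θ (fun k => y i k + F i k) x) := by
    intro i x hx
    have h1 : Es θ (F i) x = ∑ j, (z j * H i j x + H i j x * Es θ (y j) x) := by
      have h2 : Es θ (F i) x = ∑ j, Es θ (fun k => z j * g i j k + cv (h i j) (y j) k) x :=
        Es_sum (fun j => rd_add (rd_const_mul (hg i j) (z j)) (hcv i j)) θ x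
      rw [h2]
      refine Finset.sum_congr rfl fun j _ => ?_
      rw [Es_add (rd_const_mul (hg i j) (z j)) (hcv i j), Es_const_mul, ← e1 i j x hx]
      have h3 := (hA2 0 θ _ _ (hh i j) (hy j)).2.2.1 x
      rw [zero_add, ← e0 i j x hx] at h3
      rw [h3]
    rw [Es_add (hy i) (hFRD i), h1, pd_WS hA1 z θ hc y hyc]
    have h4 : ∀ j, H i j x * pd j (WS z θ c) x = EE z x *
        (z j * H i j x + H i j x * Es θ (y j) x) := by
      intro j
      rw [pd_WS hA1 z θ hc y hyc]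
      ring
    rw [Finset.sum_congr rfl fun j _ => h4 j, ← Finset.mul_sum]
    ring
  have low : ∀ x ∈ cube n, (∑ j, Λ j x * pd j (WS z θ c) x) = EE z x * Es θ G x := by
    intro x hx
    have h2 : Es θ G x = ∑ j, Es θ (fun k => z j * m j k + cv (l j) (y j) k) x :=
      Es_sum (fun j => rd_add (rd_const_mul (hm j) (z j)) (hcl j)) θ x
    rw [h2, Finset.mul_sum]
    refine Finset.sum_congr rfl fun j _ => ?_
    rw [Es_add (rd_const_mul (hm j) (z j)) (hcl j), Es_const_mul, ← f1 j x hx]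
    have h3 := (hA2 0 θ _ _ (hl j) (hy j)).2.2.1 x
    rw [zero_add, ← f0 j x hx] at h3
    rw [← h3, pd_WS hA1 z θ hc y hyc]
    ring
  intro x hx
  rw [low x hx]
  have h5 : ∀ i, pd i (fun y => pd i (WS z θ c) y + ∑ j, H i j y * pd j (WS z θ c) y) x =
      EE z x * (z i ^ 2 + Es θ (fun k => lm θ z k i * (y i k + F i k)) x) := by
    intro i
    have h6 : (fun y => pd i (WS z θ c) y + ∑ j, H i j y * pd j (WS z θ c) y) =ᶠ[nhds x]
        fun x => EE z x * (z i + Es θ (fun k => y i k + F i k) x) := by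
      filter_upwards [isOpen_cube.mem_nhds hx] with w hw
      exact flux i w hw
    have h7 := pd_EE_mul hA1 z θ (z i) (hΦ i) i x
    rw [pd_congr i h6, h7, sq]
    rfl
  have h8 : ∀ i, RD fun k => lm θ z k i * (y i k + F i k) := fun i => rd_lm (hΦ i) θ z i
  rw [Finset.sum_congr rfl fun i _ => h5 i, ← Finset.mul_sum, Finset.sum_add_distrib,
    hz, zero_add, ← mul_add, ← Es_sum h8, ← Es_add (rd_sum h8) hGRD]
  have h9 : (fun k => (∑ i, lm θ z k i * (y i k + F i k)) + G k) = fun _ => 0 := by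
    funext k
    rw [← heq k]
    have h10 : (∑ i, lm θ z k i * (y i k + F i k)) = (∑ j, lm θ z k j ^ 2) * c k +
        ∑ r, lm θ z k r * F r k := by
      rw [Finset.sum_mul, ← Finset.sum_add_distrib]
      refine Finset.sum_congr rfl fun i _ => ?_
      rw [hyc i k]
      ring
    rw [h10]
  rw [h9, Es_zero, mul_zero]

end Vale.Agent.P088.LR.CF.H599
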